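import Vale.Agent.P121.Final

namespace Vale.Agent.Results.P121.NoOptimalMonge

open MeasureTheory
open scoped ENNReal NNReal

/-- The Coulomb cost `1/|x₁-x₂| + 1/|x₁-x₃| + 1/|x₂-x₃|`, with values in `[0,∞]`; it is `∞` as soon
as two of the points coincide, because `0⁻¹ = ∞` in `[0,∞]`. -/
noncomputable def coulombCost {E : Type} [NormedAddCommGroup E] (x₁ x₂ x₃ : E) : ℝ≥0∞ :=
  (ENNReal.ofReal ‖x₁ - x₂‖)⁻¹ + (ENNReal.ofReal ‖x₁ - x₃‖)⁻¹ + (ENNReal.ofReal ‖x₂ - x₃‖)⁻¹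

/-- `Π(μ,μ,μ)`: the probability measures on `E³` with all three marginals equal to `μ`. -/
def couplings {E : Type} [MeasurableSpace E] (μ : Measure E) : Set (Measure (E × E × E)) :=
  {π | IsProbabilityMeasure π ∧ π.map (fun p => p.1) = μ ∧ π.map (fun p => p.2.1) = μ ∧
    π.map (fun p => p.2.2) = μ}

/-- The Kantorovich value `𝓔(μ)`. -/
noncomputable def kantorovichValue {E : Type} [NormedAddCommGroup E] [MeasurableSpace E]
    (μ : Measure E) : ℝ≥0∞ :=
  ⨅ π ∈ couplings μ, ∫⁻ p, coulombCost p.1 p.2.1 p.2.2 ∂π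

/-- `μ` admits an optimal Monge plan: Borel maps `T₂, T₃` with `(T₂)_# μ = (T₃)_# μ = μ` whose cost
`∫ c(x, T₂ x, T₃ x) dμ(x)` equals `𝓔(μ)`. -/
def HasOptimalMongePlan {E : Type} [NormedAddCommGroup E] [MeasurableSpace E]
    (μ : Measure E) : Prop :=
  ∃ T₂ T₃ : E → E, Measurable T₂ ∧ Measurable T₃ ∧ μ.map T₂ = μ ∧ μ.map T₃ = μ ∧
    ∫⁻ x, coulombCost x (T₂ x) (T₃ x) ∂μ = kantorovichValue μ

/-- In every dimension `d ≥ 2`, in particular for `d = 3`, there is a Borel probability measure that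
is absolutely continuous (with bounded density and compact support), has finite Coulomb value, and
admits no optimal Monge plan. -/
theorem result : ∀ d : ℕ, 2 ≤ d → ∃ μ : Measure (EuclideanSpace ℝ (Fin d)),
    IsProbabilityMeasure μ ∧ μ ≪ volume ∧ (∃ C : ℝ≥0, μ ≤ C • volume) ∧
    (∃ K : Set (EuclideanSpace ℝ (Fin d)), IsCompact K ∧ μ Kᶜ = 0) ∧
    kantorovichValue μ < ∞ ∧ ¬ HasOptimalMongePlan μ := by
  intro d hd
  have hcost : ∀ p : EuclideanSpace ℝ (Fin d) × EuclideanSpace ℝ (Fin d) ×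
      EuclideanSpace ℝ (Fin d), coulombCost p.1 p.2.1 p.2.2 = Vale.Agent.P121.cE p := by
    intro p
    simp only [coulombCost, Vale.Agent.P121.cE, edist_dist, dist_eq_norm]
  obtain ⟨μ, hμ, ⟨C, hC⟩, hK, hfin, hno⟩ := Vale.Agent.P121.main d hd
  have hval : kantorovichValue μ = ⨅ π ∈ couplings μ, ∫⁻ p, Vale.Agent.P121.cE p ∂π := by
    simp only [kantorovichValue, hcost]
  refine ⟨μ, hμ, ?_, ⟨C, hC⟩, hK, ?_, ?_⟩
  · exact (Measure.absolutelyContinuous_of_le hC).trans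
      (Measure.smul_absolutelyContinuous)
  · rw [hval]; exact hfin
  · rintro ⟨T₂, T₃, h₂, h₃, m₂, m₃, hopt⟩
    apply hno T₂ T₃ h₂ h₃ m₂ m₃
    rw [hval] at hopt
    refine Eq.trans ?_ hopt
    exact lintegral_congr fun x => (hcost (x, T₂ x, T₃ x)).symm

end Vale.Agent.Results.P121.NoOptimalMonge
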